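import Mathlib
import Vale.Agent.H71.GradedMain

/-!
# P266 (Lipman–Zariski): graded algebras whose degree-zero part is regular

Let `k` be a field of characteristic zero and `A = ⨁_{n ≥ 0} A_n` a nonnegatively graded
`k`-algebra which is a normal domain, and assume that the module of derivations `Der_k(A)` is
projective.  Let `x_1, …, x_d` be homogeneous elements, algebraically independent over `k`, such
that `A` is a finite module over `k[x_1, …, x_d]` (a homogeneous Noether normalisation), and let
`𝔪` be a prime (automatically maximal) ideal containing all `x_i` and all elements of positive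
degree.  If the degree-zero subring `A_0` is regular at the prime `𝔪 ∩ A_0`, then `A` is regular
at `𝔪`.

For `A_0 = k` this is the graded case of Hochster (1977), for normal domains.
-/

namespace Vale.Agent.Results.P266.A_GradedRegularBase

theorem result (k : Type*) [Field k] [CharZero k] (A : Type*) [CommRing A] [IsDomain A]
    [Algebra k A] [IsIntegrallyClosed A] [Module.Projective A (Derivation k A A)]
    (𝒜 : ℕ → Submodule k A) [GradedAlgebra 𝒜]
    (d : ℕ) (x : Fin d → A) (w : Fin d → ℕ) (hxw : ∀ i, x i ∈ 𝒜 (w i))
    (hx : AlgebraicIndependent k x)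
    (hfin : Module.Finite (Algebra.adjoin k (Set.range x)) A)
    (𝔪 : Ideal A) [𝔪.IsPrime] (hxm : ∀ i, x i ∈ 𝔪)
    (hplus : ∀ n, 0 < n → ∀ a ∈ 𝒜 n, a ∈ 𝔪)
    (hreg : IsRegularLocalRing (Localization.AtPrime (𝔪.comap (algebraMap (𝒜 0) A)))) :
    IsRegularLocalRing (Localization.AtPrime 𝔪) := by
  let alg : Algebra (MvPolynomial (Fin d) k) A :=
    (MvPolynomial.aeval x : MvPolynomial (Fin d) k →ₐ[k] A).toRingHom.toAlgebra
  have halg : ∀ p : MvPolynomial (Fin d) k,
      algebraMap (MvPolynomial (Fin d) k) A p = MvPolynomial.aeval x p := fun _ => rfl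
  have : IsScalarTower k (MvPolynomial (Fin d) k) A :=
    IsScalarTower.of_algebraMap_eq fun r => by
      rw [halg, MvPolynomial.algebraMap_eq, MvPolynomial.aeval_C]
  have : FaithfulSMul (MvPolynomial (Fin d) k) A :=
    (faithfulSMul_iff_algebraMap_injective _ _).2 hx
  have : Module.Finite (MvPolynomial (Fin d) k) A := by
    have hB : Algebra.adjoin k (Set.range x)
        = (MvPolynomial.aeval x : MvPolynomial (Fin d) k →ₐ[k] A).range :=
      Algebra.adjoin_range_eq_range_aeval k x
    rw [hB] at hfin
    have h1 : (MvPolynomial.aeval x :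
        MvPolynomial (Fin d) k →ₐ[k] A).rangeRestrict.toRingHom.Finite :=
      RingHom.Finite.of_surjective _
        (MvPolynomial.aeval x : MvPolynomial (Fin d) k →ₐ[k] A).rangeRestrict_surjective
    have h2 : (algebraMap ((MvPolynomial.aeval x : MvPolynomial (Fin d) k →ₐ[k] A).range)
        A).Finite := RingHom.finite_algebraMap.2 hfin
    exact RingHom.Finite.comp h2 h1
  exact Vale.Agent.H71.regular_of_graded (k := k) (d := d) 𝒜 w
    (fun i => by rw [halg, MvPolynomial.aeval_X]; exact hxw i) 𝔪
    (fun i => by rw [halg, MvPolynomial.aeval_X]; exact hxm i) hplus hreg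

end Vale.Agent.Results.P266.A_GradedRegularBase
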