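import Mathlib
import Vale.Agent.H71.Conormal

/-!
# P266 (Lipman–Zariski): regularity along a regular subscheme with an Euler-like derivation

Let `k` be a field of characteristic zero and `A` a normal domain which is a finite module over a
polynomial subalgebra `k[x_1, …, x_d]`, with projective module of derivations `Der_k(A)`.  Let `I`
be an ideal of `A`, `𝔮` a prime of `A ⧸ I` and `𝔪` its preimage in `A`, and assume all `x_i ∈ 𝔪`.
Let `D` be a `k`-derivation of `A` which, locally at `𝔪`, maps every `x_i` into the ideal
`(x_1, …, x_d)`, and which is surjective on the image of `I` in the cotangent space `𝔪 / 𝔪 ^ 2`.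
If the closed subscheme `Spec (A ⧸ I)` is regular at the point `𝔮`, then `Spec A` is regular at
the point `𝔪`.

The case `I = 𝔪` is the statement for points carrying an Euler-like derivation; the case of a
graded ring, `D` the Euler derivation and `I` the ideal of the fixed locus gives the graded
statements.
-/

namespace Vale.Agent.Results.P266.A_RegularAlongSubscheme

theorem result (k : Type*) [Field k] [CharZero k] (A : Type*) [CommRing A] [IsDomain A]
    [Algebra k A] [IsIntegrallyClosed A] [Module.Projective A (Derivation k A A)]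
    (d : ℕ) (x : Fin d → A) (hx : AlgebraicIndependent k x)
    (hfin : Module.Finite (Algebra.adjoin k (Set.range x)) A)
    (I : Ideal A) (𝔮 : Ideal (A ⧸ I)) [𝔮.IsPrime]
    (hxm : ∀ i, x i ∈ 𝔮.comap (Ideal.Quotient.mk I))
    (D : Derivation k A A)
    (hD : ∃ s : A, s ∉ 𝔮.comap (Ideal.Quotient.mk I) ∧
      ∀ i, s * D (x i) ∈ Ideal.span (Set.range x))
    (hsurj : ∀ f ∈ I, ∃ g ∈ I, f - D g ∈ (𝔮.comap (Ideal.Quotient.mk I)) ^ 2)
    (hreg : IsRegularLocalRing (Localization.AtPrime 𝔮)) :
    IsRegularLocalRing (Localization.AtPrime (𝔮.comap (Ideal.Quotient.mk I))) := by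
  let alg : Algebra (MvPolynomial (Fin d) k) A :=
    (MvPolynomial.aeval x : MvPolynomial (Fin d) k →ₐ[k] A).toRingHom.toAlgebra
  have halg : ∀ p : MvPolynomial (Fin d) k,
      algebraMap (MvPolynomial (Fin d) k) A p = MvPolynomial.aeval x p := fun _ => rfl
  have : IsScalarTower k (MvPolynomial (Fin d) k) A :=
    IsScalarTower.of_algebraMap_eq fun r => by
      rw [halg, MvPolynomial.algebraMap_eq, MvPolynomial.aeval_C]
  have : FaithfulSMul (MvPolynomial (Fin d) k) A :=
    (faithfulSMul_iff_algebraMap_injective _ _).2 hx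
  have : Module.Finite (MvPolynomial (Fin d) k) A := by
    have hB : Algebra.adjoin k (Set.range x)
        = (MvPolynomial.aeval x : MvPolynomial (Fin d) k →ₐ[k] A).range :=
      Algebra.adjoin_range_eq_range_aeval k x
    rw [hB] at hfin
    have h1 : (MvPolynomial.aeval x :
        MvPolynomial (Fin d) k →ₐ[k] A).rangeRestrict.toRingHom.Finite :=
      RingHom.Finite.of_surjective _
        (MvPolynomial.aeval x : MvPolynomial (Fin d) k →ₐ[k] A).rangeRestrict_surjective
    have h2 : (algebraMap ((MvPolynomial.aeval x : MvPolynomial (Fin d) k →ₐ[k] A).range)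
        A).Finite := RingHom.finite_algebraMap.2 hfin
    exact RingHom.Finite.comp h2 h1
  have hxeq : (fun i : Fin d => algebraMap (MvPolynomial (Fin d) k) A (MvPolynomial.X i)) = x := by
    funext i
    rw [halg, MvPolynomial.aeval_X]
  obtain ⟨s, hs, hDs⟩ := hD
  exact Vale.Agent.H71.regular_of_conormal (k := k) (d := d) I 𝔮
    (fun i => by rw [halg, MvPolynomial.aeval_X]; exact hxm i) D s hs
    (fun i => by rw [hxeq, halg, MvPolynomial.aeval_X]; exact hDs i) hsurj hreg

end Vale.Agent.Results.P266.A_RegularAlongSubscheme
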