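import Mathlib
import Vale.Agent.H71.Conormal
import Vale.Agent.H71.GradedZ

/-!
# P266 (Lipman–Zariski): fixed points of a torus action with regular fixed-point scheme

Let `k` be a field of characteristic zero and `A = ⨁_{n ∈ ℤ} A_n` a `ℤ`-graded `k`-algebra (that
is, `Spec A` carries an action of the multiplicative group) which is a normal domain with
projective module of derivations `Der_k(A)`.  Let `x_1, …, x_d` be homogeneous elements,
algebraically independent over `k`, such that `A` is a finite module over `k[x_1, …, x_d]`.  Let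
`I` be the ideal generated by all homogeneous elements of nonzero degree, so that `Spec (A ⧸ I)`
is the fixed-point scheme, let `𝔮` be a prime of `A ⧸ I` and `𝔪` its preimage in `A`, and assume
all `x_i ∈ 𝔪`.  If the fixed-point scheme is regular at `𝔮`, then `Spec A` is regular at `𝔪`.
-/

namespace Vale.Agent.Results.P266.A_TorusFixedLocus

theorem result (k : Type*) [Field k] [CharZero k] (A : Type*) [CommRing A] [IsDomain A]
    [Algebra k A] [IsIntegrallyClosed A] [Module.Projective A (Derivation k A A)]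
    (𝒜 : ℤ → Submodule k A) [GradedAlgebra 𝒜]
    (d : ℕ) (x : Fin d → A) (w : Fin d → ℤ) (hxw : ∀ i, x i ∈ 𝒜 (w i))
    (hx : AlgebraicIndependent k x)
    (hfin : Module.Finite (Algebra.adjoin k (Set.range x)) A)
    (𝔮 : Ideal (A ⧸ Ideal.span {a : A | ∃ n : ℤ, n ≠ 0 ∧ a ∈ 𝒜 n})) [𝔮.IsPrime]
    (hxm : ∀ i, x i ∈ 𝔮.comap
      (Ideal.Quotient.mk (Ideal.span {a : A | ∃ n : ℤ, n ≠ 0 ∧ a ∈ 𝒜 n})))
    (hreg : IsRegularLocalRing (Localization.AtPrime 𝔮)) :
    IsRegularLocalRing (Localization.AtPrime (𝔮.comap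
      (Ideal.Quotient.mk (Ideal.span {a : A | ∃ n : ℤ, n ≠ 0 ∧ a ∈ 𝒜 n})))) := by
  let alg : Algebra (MvPolynomial (Fin d) k) A :=
    (MvPolynomial.aeval x : MvPolynomial (Fin d) k →ₐ[k] A).toRingHom.toAlgebra
  have halg : ∀ p : MvPolynomial (Fin d) k,
      algebraMap (MvPolynomial (Fin d) k) A p = MvPolynomial.aeval x p := fun _ => rfl
  have : IsScalarTower k (MvPolynomial (Fin d) k) A :=
    IsScalarTower.of_algebraMap_eq fun r => by
      rw [halg, MvPolynomial.algebraMap_eq, MvPolynomial.aeval_C]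
  have : FaithfulSMul (MvPolynomial (Fin d) k) A :=
    (faithfulSMul_iff_algebraMap_injective _ _).2 hx
  have : Module.Finite (MvPolynomial (Fin d) k) A := by
    have hB : Algebra.adjoin k (Set.range x)
        = (MvPolynomial.aeval x : MvPolynomial (Fin d) k →ₐ[k] A).range :=
      Algebra.adjoin_range_eq_range_aeval k x
    rw [hB] at hfin
    have h1 : (MvPolynomial.aeval x :
        MvPolynomial (Fin d) k →ₐ[k] A).rangeRestrict.toRingHom.Finite :=
      RingHom.Finite.of_surjective _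
        (MvPolynomial.aeval x : MvPolynomial (Fin d) k →ₐ[k] A).rangeRestrict_surjective
    have h2 : (algebraMap ((MvPolynomial.aeval x : MvPolynomial (Fin d) k →ₐ[k] A).range)
        A).Finite := RingHom.finite_algebraMap.2 hfin
    exact RingHom.Finite.comp h2 h1
  have hI : Ideal.span {a : A | ∃ n : ℤ, n ≠ 0 ∧ a ∈ 𝒜 n}
      ≤ 𝔮.comap (Ideal.Quotient.mk (Ideal.span {a : A | ∃ n : ℤ, n ≠ 0 ∧ a ∈ 𝒜 n})) := by
    intro a ha
    rw [Ideal.mem_comap, Ideal.Quotient.eq_zero_iff_mem.2 ha]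
    exact 𝔮.zero_mem
  refine Vale.Agent.H71.regular_of_conormal (k := k) (d := d) _ 𝔮
    (fun i => by rw [halg, MvPolynomial.aeval_X]; exact hxm i) (Vale.Agent.H71.eulerZ 𝒜) 1
    (fun h => (inferInstance : (𝔮.comap (Ideal.Quotient.mk
      (Ideal.span {a : A | ∃ n : ℤ, n ≠ 0 ∧ a ∈ 𝒜 n}))).IsPrime).ne_top
      ((Ideal.eq_top_iff_one _).2 h)) ?_ ?_ hreg
  · intro i
    rw [one_mul, halg, MvPolynomial.aeval_X, Vale.Agent.H71.eulerZ_of_mem 𝒜 (hxw i),
      Algebra.smul_def]
    refine Ideal.mul_mem_left _ _ (Ideal.subset_span ⟨i, ?_⟩)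
    change algebraMap (MvPolynomial (Fin d) k) A (MvPolynomial.X i) = x i
    rw [halg, MvPolynomial.aeval_X]
  · intro f hf
    obtain ⟨g, hg, hfg⟩ := Vale.Agent.H71.exists_eulerZ_sub_mem 𝒜 f hf
    exact ⟨g, hg, Ideal.pow_right_mono hI 2 hfg⟩

end Vale.Agent.Results.P266.A_TorusFixedLocus
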