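import Mathlib
import Vale.Agent.Results.P266.A_RegularAlongSubscheme
import Vale.Agent.Results.P266.A_TorusFixedLocus
import Vale.Agent.Results.P266.A_GradedRegularBase

/-!
# P266 (Lipman–Zariski): three regularity criteria in one statement

Let `k` be a field of characteristic zero and `A` a normal domain which is a finite module over a
polynomial subalgebra `k[x_1, …, x_d]`, with projective module of derivations `Der_k(A)`.

1. (Regular subscheme with an Euler-like derivation.)  Let `I` be an ideal of `A`, `𝔮` a prime of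
   `A ⧸ I` and `𝔪` its preimage in `A`, with all `x_i ∈ 𝔪`, and let `D` be a `k`-derivation of `A`
   which, locally at `𝔪`, maps every `x_i` into the ideal `(x_1, …, x_d)`, and which is surjective
   on the image of `I` in `𝔪 / 𝔪 ^ 2`.  If `A ⧸ I` is regular at `𝔮`, then `A` is regular at `𝔪`.
2. (Torus fixed locus.)  If `A` is `ℤ`-graded, the `x_i` are homogeneous, `I` is the ideal
   generated by the homogeneous elements of nonzero degree, `𝔮` is a prime of `A ⧸ I` and `𝔪` its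
   preimage in `A`, with all `x_i ∈ 𝔪`, and `A ⧸ I` is regular at `𝔮`, then `A` is regular at `𝔪`.
3. (Regular degree-zero part.)  If `A` is `ℕ`-graded, the `x_i` are homogeneous, `𝔪` is a prime
   containing all `x_i` and all homogeneous elements of positive degree, and the degree-zero
   subring `A_0` is regular at `𝔪 ∩ A_0`, then `A` is regular at `𝔪`.
-/

namespace Vale.Agent.Results.P266.A0_ThreeCriteria

theorem result (k : Type*) [Field k] [CharZero k] (A : Type*) [CommRing A] [IsDomain A]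
    [Algebra k A] [IsIntegrallyClosed A] [Module.Projective A (Derivation k A A)]
    (d : ℕ) (x : Fin d → A) (hx : AlgebraicIndependent k x)
    (hfin : Module.Finite (Algebra.adjoin k (Set.range x)) A) :
    (∀ (I : Ideal A) (𝔮 : Ideal (A ⧸ I)) [𝔮.IsPrime],
      (∀ i, x i ∈ 𝔮.comap (Ideal.Quotient.mk I)) →
      ∀ D : Derivation k A A,
      (∃ s : A, s ∉ 𝔮.comap (Ideal.Quotient.mk I) ∧
        ∀ i, s * D (x i) ∈ Ideal.span (Set.range x)) →
      (∀ f ∈ I, ∃ g ∈ I, f - D g ∈ (𝔮.comap (Ideal.Quotient.mk I)) ^ 2) →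
      IsRegularLocalRing (Localization.AtPrime 𝔮) →
      IsRegularLocalRing (Localization.AtPrime (𝔮.comap (Ideal.Quotient.mk I)))) ∧
    (∀ (𝒜 : ℤ → Submodule k A) [GradedAlgebra 𝒜] (w : Fin d → ℤ),
      (∀ i, x i ∈ 𝒜 (w i)) →
      ∀ (𝔮 : Ideal (A ⧸ Ideal.span {a : A | ∃ n : ℤ, n ≠ 0 ∧ a ∈ 𝒜 n})) [𝔮.IsPrime],
      (∀ i, x i ∈ 𝔮.comap
        (Ideal.Quotient.mk (Ideal.span {a : A | ∃ n : ℤ, n ≠ 0 ∧ a ∈ 𝒜 n}))) →
      IsRegularLocalRing (Localization.AtPrime 𝔮) →
      IsRegularLocalRing (Localization.AtPrime (𝔮.comap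
        (Ideal.Quotient.mk (Ideal.span {a : A | ∃ n : ℤ, n ≠ 0 ∧ a ∈ 𝒜 n}))))) ∧
    (∀ (𝒜 : ℕ → Submodule k A) [GradedAlgebra 𝒜] (w : Fin d → ℕ),
      (∀ i, x i ∈ 𝒜 (w i)) →
      ∀ (𝔪 : Ideal A) [𝔪.IsPrime], (∀ i, x i ∈ 𝔪) →
      (∀ n, 0 < n → ∀ a ∈ 𝒜 n, a ∈ 𝔪) →
      IsRegularLocalRing (Localization.AtPrime (𝔪.comap (algebraMap (𝒜 0) A))) →
      IsRegularLocalRing (Localization.AtPrime 𝔪)) :=
  ⟨fun I 𝔮 _ hxm D hD hsurj hreg =>
      Vale.Agent.Results.P266.A_RegularAlongSubscheme.result k A d x hx hfin I 𝔮 hxm D hD hsurj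
        hreg,
    fun 𝒜 _ w hxw 𝔮 _ hxm hreg =>
      Vale.Agent.Results.P266.A_TorusFixedLocus.result k A 𝒜 d x w hxw hx hfin 𝔮 hxm hreg,
    fun 𝒜 _ w hxw 𝔪 _ hxm hplus hreg =>
      Vale.Agent.Results.P266.A_GradedRegularBase.result k A 𝒜 d x w hxw hx hfin 𝔪 hxm hplus
        hreg⟩

end Vale.Agent.Results.P266.A0_ThreeCriteria
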